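import Vale.Agent.Lib.P048.Window

namespace Vale.Agent.Results.P048.CycleWindow

/-- For `m ≥ 3` and `n ≥ 2`, every finite graph on at least `(m - 1) * (n - 1) + 1` vertices
contains a cycle whose length `ℓ` satisfies `m ≤ ℓ ≤ m + 2 * n - 4`, or an independent set of
`n` vertices. -/
theorem result (m n : ℕ) (hm : 3 ≤ m) (hn : 2 ≤ n) {V : Type*} [Fintype V] (G : SimpleGraph V)
    (hcard : (m - 1) * (n - 1) + 1 ≤ Fintype.card V) :
    (∃ (v : V) (p : G.Walk v v), p.IsCycle ∧ m ≤ p.length ∧ p.length ≤ m + 2 * n - 4) ∨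
      ∃ s : Finset V, G.IsNIndepSet n s := by
  by_cases h : ∃ s : Finset V, G.IsNIndepSet n s
  · exact Or.inr h
  · exact Or.inl (Vale.Agent.Lib.P048.window m hm n hn G hcard (fun s hs => h ⟨s, hs⟩))

end Vale.Agent.Results.P048.CycleWindow
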