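import Vale.Agent.Lib.P048.SumTop

namespace Vale.Agent.Results.P048.DescentInN

/-- If every graph on `(m - 1) * n + 1` vertices contains a cycle of length exactly `m` or an
independent set of `n + 1` vertices, then every graph on `(m - 1) * (n - 1) + 1` vertices
contains a cycle of length exactly `m` or an independent set of `n` vertices. -/
theorem result (m n : ℕ) (hn : 1 ≤ n)
    (h : ∀ G : SimpleGraph (Fin ((m - 1) * n + 1)),
      (∃ (v : Fin ((m - 1) * n + 1)) (p : G.Walk v v), p.IsCycle ∧ p.length = m) ∨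
        ∃ s : Finset (Fin ((m - 1) * n + 1)), G.IsNIndepSet (n + 1) s) :
    ∀ G : SimpleGraph (Fin ((m - 1) * (n - 1) + 1)),
      (∃ (v : Fin ((m - 1) * (n - 1) + 1)) (p : G.Walk v v), p.IsCycle ∧ p.length = m) ∨
        ∃ s : Finset (Fin ((m - 1) * (n - 1) + 1)), G.IsNIndepSet n s := by
  obtain ⟨k, rfl⟩ : ∃ k, n = k + 1 := ⟨n - 1, by omega⟩
  have e : (m - 1) * (k + 1) + 1 = (m - 1) * k + 1 + (m - 1) := by ring
  rw [e] at h
  rw [Nat.add_sub_cancel]
  exact Vale.Agent.Lib.P048.arrow_descend m (k + 1) ((m - 1) * k + 1) h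

end Vale.Agent.Results.P048.DescentInN
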