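import Vale.Agent.Lib.P048.SumTop

namespace Vale.Agent.Results.P048.RamseyStep

/-- If `R` and `R'` are the least numbers of vertices forcing a cycle of length exactly `m` or
an independent set of size `n`, respectively `n + 1`, then `R + (m - 1) ≤ R'`. -/
theorem result (m n R R' : ℕ) (hn : 1 ≤ n)
    (hR : IsLeast {N : ℕ | ∀ G : SimpleGraph (Fin N),
      (∃ (v : Fin N) (p : G.Walk v v), p.IsCycle ∧ p.length = m) ∨
        ∃ s : Finset (Fin N), G.IsNIndepSet n s} R)
    (hR' : IsLeast {N : ℕ | ∀ G : SimpleGraph (Fin N),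
      (∃ (v : Fin N) (p : G.Walk v v), p.IsCycle ∧ p.length = m) ∨
        ∃ s : Finset (Fin N), G.IsNIndepSet (n + 1) s} R') :
    R + (m - 1) ≤ R' :=
  Vale.Agent.Lib.P048.ramsey_step m n R R' hn hR hR'

end Vale.Agent.Results.P048.RamseyStep
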