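import Vale.Agent.Lib.P048.Window
import Vale.Agent.Lib.P048.SumTop

namespace Vale.Agent.Results.P048.WindowAndStep

universe u

/-- Three facts about cycles and independent sets, in one statement.

1. For `m ≥ 3` and `n ≥ 2`, every finite graph on at least `(m - 1) * (n - 1) + 1` vertices
contains a cycle whose length `ℓ` satisfies `m ≤ ℓ ≤ m + 2 * n - 4`, or an independent set of
`n` vertices.

2. If `R` and `R'` are the least numbers of vertices forcing a cycle of length exactly `m` or
an independent set of size `n`, respectively `n + 1`, then `R + (m - 1) ≤ R'`.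

3. If every graph on `(m - 1) * n + 1` vertices contains a cycle of length exactly `m` or an
independent set of `n + 1` vertices, then every graph on `(m - 1) * (n - 1) + 1` vertices
contains a cycle of length exactly `m` or an independent set of `n` vertices. -/
theorem result :
    (∀ m n : ℕ, 3 ≤ m → 2 ≤ n → ∀ (V : Type u) [Fintype V] (G : SimpleGraph V),
      (m - 1) * (n - 1) + 1 ≤ Fintype.card V →
      (∃ (v : V) (p : G.Walk v v), p.IsCycle ∧ m ≤ p.length ∧ p.length ≤ m + 2 * n - 4) ∨
        ∃ s : Finset V, G.IsNIndepSet n s) ∧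
    (∀ m n R R' : ℕ, 1 ≤ n →
      IsLeast {N : ℕ | ∀ G : SimpleGraph (Fin N),
        (∃ (v : Fin N) (p : G.Walk v v), p.IsCycle ∧ p.length = m) ∨
          ∃ s : Finset (Fin N), G.IsNIndepSet n s} R →
      IsLeast {N : ℕ | ∀ G : SimpleGraph (Fin N),
        (∃ (v : Fin N) (p : G.Walk v v), p.IsCycle ∧ p.length = m) ∨
          ∃ s : Finset (Fin N), G.IsNIndepSet (n + 1) s} R' →
      R + (m - 1) ≤ R') ∧
    (∀ m n : ℕ, 1 ≤ n →
      (∀ G : SimpleGraph (Fin ((m - 1) * n + 1)),
        (∃ (v : Fin ((m - 1) * n + 1)) (p : G.Walk v v), p.IsCycle ∧ p.length = m) ∨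
          ∃ s : Finset (Fin ((m - 1) * n + 1)), G.IsNIndepSet (n + 1) s) →
      ∀ G : SimpleGraph (Fin ((m - 1) * (n - 1) + 1)),
        (∃ (v : Fin ((m - 1) * (n - 1) + 1)) (p : G.Walk v v), p.IsCycle ∧ p.length = m) ∨
          ∃ s : Finset (Fin ((m - 1) * (n - 1) + 1)), G.IsNIndepSet n s) := by
  refine ⟨?_, ?_, ?_⟩
  · intro m n hm hn V _ G hcard
    by_cases h : ∃ s : Finset V, G.IsNIndepSet n s
    · exact Or.inr h
    · exact Or.inl (Vale.Agent.Lib.P048.window m hm n hn G hcard (fun s hs => h ⟨s, hs⟩))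
  · intro m n R R' hn hR hR'
    exact Vale.Agent.Lib.P048.ramsey_step m n R R' hn hR hR'
  · intro m n hn h
    obtain ⟨k, rfl⟩ : ∃ k, n = k + 1 := ⟨n - 1, by omega⟩
    have e : (m - 1) * (k + 1) + 1 = (m - 1) * k + 1 + (m - 1) := by ring
    rw [e] at h
    rw [Nat.add_sub_cancel]
    exact Vale.Agent.Lib.P048.arrow_descend m (k + 1) ((m - 1) * k + 1) h

end Vale.Agent.Results.P048.WindowAndStep
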